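import Mathlib.Algebra.Group.Subgroup.Lattice
import Mathlib.Algebra.Group.Subgroup.Map
import Mathlib.Tactic

/-!
The invariant subgroups of a product of a group of prime order and a simple group.
-/

set_option autoImplicit false

namespace Vale.Agent.P183.H3

variable {Q : Type} [Group Q]

theorem four_of (P Q0 A B : Subgroup Q) (hP : P ≤ Q0) (hB : B ≤ P)
    (hdec : ∀ x ∈ P, ∃ a ∈ A, ∃ b ∈ B, x = a * b)
    (hcomm : ∀ a ∈ A, ∀ b ∈ B, a * b = b * a)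
    (hAp : ∀ N : Subgroup Q, N ≤ A → N = ⊥ ∨ N = A)
    (h0 : ∃ u ∈ B, ∃ v ∈ B, u ≠ 1 ∧ u * u = 1 ∧ v ≠ 1 ∧ v * v = 1 ∧ u ≠ v)
    (h1 : ∀ s ∈ B, s ≠ 1 → ∃ x ∈ B, s * (x * (s * s) * x⁻¹) ≠ 1 ∧
      (s * (x * (s * s) * x⁻¹)) * (s * (x * (s * s) * x⁻¹)) = 1)
    (h2 : ∀ u ∈ B, ∀ v ∈ B, u ≠ 1 → u * u = 1 → v ≠ 1 → v * v = 1 → ∃ x ∈ B, v = x * u * x⁻¹)
    (h3 : ∀ g ∈ B, ∃ u ∈ B, ∃ v ∈ B, u * u = 1 ∧ v * v = 1 ∧ g = u * v)
    (N : Subgroup Q) (hN : N ≤ P) (hNn : ∀ q ∈ Q0, ∀ x ∈ N, q * x * q⁻¹ ∈ N) :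
    N = ⊥ ∨ N = A ∨ N = B ∨ N = P := by
  have hz : ∀ x ∈ B, (∀ b ∈ B, x * b = b * x) → x = 1 := by
    intro x hx hc
    by_contra hne
    obtain ⟨y, hy, hu, hu2⟩ := h1 x hx hne
    have e : y * (x * x) * y⁻¹ = x * x := by
      have h := hc y hy
      calc y * (x * x) * y⁻¹ = (y * x) * x * y⁻¹ := by group
        _ = (x * y) * x * y⁻¹ := by rw [h]
        _ = x * (y * x) * y⁻¹ := by group
        _ = x * (x * y) * y⁻¹ := by rw [h]
        _ = x * x := by group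
    rw [e] at hu hu2
    have hcen : ∀ z ∈ B, z * (x * (x * x)) * z⁻¹ = x * (x * x) := by
      intro z hz
      have h := hc z hz
      calc z * (x * (x * x)) * z⁻¹ = (z * x) * x * x * z⁻¹ := by group
        _ = (x * z) * x * x * z⁻¹ := by rw [h]
        _ = x * (z * x) * x * z⁻¹ := by group
        _ = x * (x * z) * x * z⁻¹ := by rw [h]
        _ = x * x * (z * x) * z⁻¹ := by group
        _ = x * x * (x * z) * z⁻¹ := by rw [h]
        _ = x * (x * x) := by group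
    have hB3 : x * (x * x) ∈ B := B.mul_mem hx (B.mul_mem hx hx)
    obtain ⟨u, hu', v, hv', hu1, huu, hv1, hvv, huv⟩ := h0
    obtain ⟨z, hz, e1⟩ := h2 _ hB3 u hu' hu hu2 hu1 huu
    obtain ⟨w, hw, e2⟩ := h2 _ hB3 v hv' hu hu2 hv1 hvv
    apply huv
    rw [e1, e2, hcen z hz, hcen w hw]
  by_cases hNA : N ≤ A
  · rcases hAp N hNA with h | h
    · exact Or.inl h
    · exact Or.inr (Or.inl h)
  right; right
  obtain ⟨x, hx, hxA⟩ := Set.not_subset.1 hNA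
  obtain ⟨a, ha, b, hb, rfl⟩ := hdec x (hN hx)
  have hb1 : b ≠ 1 := by
    rintro rfl
    apply hxA
    simpa using ha
  have hBN : B ≤ N := by
    obtain ⟨y, hy, hby⟩ : ∃ y ∈ B, b * y ≠ y * b := by
      by_contra hcon
      push Not at hcon
      exact hb1 (hz b hb hcon)
    have hconj : ∀ q ∈ B, ∀ n ∈ N, q * n * q⁻¹ ∈ N := fun q hq n hn =>
      hNn q (hP (hB hq)) n hn
    have hn : (a * b) * (y * (a * b) * y⁻¹)⁻¹ ∈ N :=
      N.mul_mem hx (N.inv_mem (hconj y hy _ hx))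
    have e : (a * b) * (y * (a * b) * y⁻¹)⁻¹ = b * y * b⁻¹ * y⁻¹ := by
      have hy1 : a * (b * y * b⁻¹) = (b * y * b⁻¹) * a :=
        hcomm a ha _ (B.mul_mem (B.mul_mem hb hy) (B.inv_mem hb))
      calc (a * b) * (y * (a * b) * y⁻¹)⁻¹ = (a * (b * y * b⁻¹)) * a⁻¹ * y⁻¹ := by group
        _ = ((b * y * b⁻¹) * a) * a⁻¹ * y⁻¹ := by rw [hy1]
        _ = b * y * b⁻¹ * y⁻¹ := by group
    rw [e] at hn
    set s := b * y * b⁻¹ * y⁻¹ with hs
    have hsB : s ∈ B := B.mul_mem (B.mul_mem (B.mul_mem hb hy) (B.inv_mem hb)) (B.inv_mem hy)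
    have hs1 : s ≠ 1 := by
      intro h
      apply hby
      have h' : b * y * b⁻¹ * y⁻¹ = 1 := h
      have : b * y = y * b := by
        have h'' : b * y * (y * b)⁻¹ = 1 := by
          rw [mul_inv_rev, ← mul_assoc]
          exact h'
        exact mul_inv_eq_one.1 h''
      exact this
    obtain ⟨z, hzB, hu, hu2⟩ := h1 s hsB hs1
    have huN : s * (z * (s * s) * z⁻¹) ∈ N :=
      N.mul_mem hn (hconj z hzB _ (N.mul_mem hn hn))
    have huB : s * (z * (s * s) * z⁻¹) ∈ B :=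
      B.mul_mem hsB (B.mul_mem (B.mul_mem hzB (B.mul_mem hsB hsB)) (B.inv_mem hzB))
    have hall : ∀ v ∈ B, v * v = 1 → v ∈ N := by
      intro v hv hv2
      by_cases hv1 : v = 1
      · rw [hv1]; exact N.one_mem
      obtain ⟨w, hw, rfl⟩ := h2 _ huB v hv hu hu2 hv1 hv2
      exact hconj w hw _ huN
    intro g hg
    obtain ⟨u, hu, v, hv, hu', hv', rfl⟩ := h3 g hg
    exact N.mul_mem (hall u hu hu') (hall v hv hv')
  by_cases hNB : N ≤ B
  · exact Or.inl (le_antisymm hNB hBN)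
  right
  obtain ⟨w, hw, hwB⟩ := Set.not_subset.1 hNB
  obtain ⟨a', ha', b', hb', rfl⟩ := hdec w (hN hw)
  have ha'N : a' ∈ N := by
    have h := N.mul_mem hw (N.inv_mem (hBN hb'))
    have e : a' * b' * b'⁻¹ = a' := by group
    rwa [e] at h
  have ha'1 : a' ≠ 1 := by
    rintro rfl
    apply hwB
    simpa using hb'
  have hAN : A ≤ N := by
    rcases hAp (N ⊓ A) inf_le_right with h | h
    · exfalso
      apply ha'1
      have : a' ∈ N ⊓ A := ⟨ha'N, ha'⟩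
      rw [h] at this
      exact this
    · rw [← h]
      exact inf_le_left
  refine le_antisymm hN ?_
  intro p hp
  obtain ⟨c, hc, d, hd, rfl⟩ := hdec p hp
  exact N.mul_mem (hAN hc) (hBN hd)

/-- A subgroup all of whose elements different from one generate it is minimal. -/
theorem prime_of (A : Subgroup Q) (h : ∀ a ∈ A, a ≠ 1 → ∀ b ∈ A, ∃ n : ℕ, b = a ^ n)
    (N : Subgroup Q) (hN : N ≤ A) : N = ⊥ ∨ N = A := by
  by_cases hb : N = ⊥
  · exact Or.inl hb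
  right
  obtain ⟨⟨a, ha⟩, ha0⟩ := Subgroup.ne_bot_iff_exists_ne_one.1 hb
  have ha1 : a ≠ 1 := fun h => ha0 (Subtype.ext h)
  refine le_antisymm hN fun b hb => ?_
  obtain ⟨n, rfl⟩ := h a (hN ha) ha1 b hb
  exact N.pow_mem ha n

end Vale.Agent.P183.H3
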