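import Vale.Agent.P183.H552.U3
import Vale.Agent.P183.H3.Abs

/-!
The invariant subgroups of `5 × A_5`, and the centraliser of `5 ^ 2 : 2`.
-/

set_option autoImplicit false

namespace Vale.Agent.P183.H3

open Vale.Agent.P183.H552 Matrix

/-- The matrices of the elements of `BB`. -/
def BM (p q : F16) : M3 := !![1, 0, 0; 0, p, q; 0, F16.cj q, F16.cj p]

theorem BM_mul (p q p' q' : F16) : BM p q * BM p' q' =
    BM (p * p' + q * F16.cj q') (p * q' + q * F16.cj p') := by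
  refine Matrix.ext fun i j => ?_
  fin_cases i <;> fin_cases j <;>
    simp [BM, Matrix.mul_apply, Fin.sum_univ_three] <;> ring

theorem BM_st (p q : F16) : st (BM p q) = BM (F16.cj p) q := by
  refine Matrix.ext fun i j => ?_
  fin_cases i <;> fin_cases j <;> simp [BM]

theorem BM_det (p q : F16) (h : p * F16.cj p + q * F16.cj q = 1) : (BM p q).det = 1 := by
  simp only [BM, Matrix.det_fin_three]
  simp
  rw [← h, sub_eq_add_neg, F16.neg_eq]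

theorem BM_h (p q : F16) (h : p * F16.cj p + q * F16.cj q = 1) : BM p q * st (BM p q) = 1 := by
  rw [BM_st, BM_mul]
  have e : p * q + q * F16.cj (F16.cj p) = 0 := by
    rw [F16.cj_cj, mul_comm q p, F16.add_self]
  rw [h, e]
  refine Matrix.ext fun i j => ?_
  fin_cases i <;> fin_cases j <;> simp [BM]

/-- The element of `BB`. -/
def bb (p q : F16) (h : p * F16.cj p + q * F16.cj q = 1) : U := ⟨BM p q, false, BM_h p q h, BM_det p q h⟩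

theorem bb_mem (p q : F16) (h : p * F16.cj p + q * F16.cj q = 1) : bb p q h ∈ BB := by
  refine ⟨⟨?_, ?_, ?_, ?_⟩, rfl, ?_⟩ <;> simp [bb, BM]

theorem exists_bb (x : U) (hx : x ∈ BB) :
    ∃ p q, p * F16.cj p + q * F16.cj q = 1 ∧ x.m = BM p q ∧ x.b = false := by
  obtain ⟨⟨h1, h2, h3, h4⟩, hb, h0⟩ := hx
  have e11 : (x.m * st x.m) 1 1 = 1 := by rw [x.h]; rfl
  have e22 : (x.m * st x.m) 2 2 = 1 := by rw [x.h]; rfl
  have e12 : (x.m * st x.m) 1 2 = 0 := by rw [x.h]; rfl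
  have d := x.dt
  simp only [Matrix.mul_apply, Fin.sum_univ_three, st_apply, h1, h2, map_zero, mul_zero,
    zero_add] at e11 e22 e12
  rw [Matrix.det_fin_three] at d
  simp only [h0, h1, h2, h3, h4, one_mul, zero_mul, mul_zero, sub_zero, add_zero] at d
  have r1 : x.m 1 1 = F16.cj (x.m 2 2) := by
    linear_combination (-(x.m 1 1)) * e22 + F16.cj (x.m 2 2) * d + x.m 2 1 * e12
  have r2 : -x.m 1 2 = F16.cj (x.m 2 1) := by
    linear_combination (x.m 1 2) * e22 + F16.cj (x.m 2 1) * d - x.m 2 2 * e12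
  rw [F16.neg_eq] at r2
  have r1' : x.m 2 2 = F16.cj (x.m 1 1) := by rw [r1, F16.cj_cj]
  have r2' : x.m 2 1 = F16.cj (x.m 1 2) := by rw [r2, F16.cj_cj]
  refine ⟨x.m 1 1, x.m 1 2, e11, ?_, hb⟩
  refine Matrix.ext fun i j => ?_
  fin_cases i <;> fin_cases j <;> simp [BM, h0, h1, h2, h3, h4, ← r1', ← r2']

/-- Multiplication of pairs. -/
def pm (x y : F16 × F16) : F16 × F16 :=
  (x.1 * y.1 + x.2 * F16.cj y.2, x.1 * y.2 + x.2 * F16.cj y.1)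

/-- Inverse of a pair. -/
def pi' (x : F16 × F16) : F16 × F16 := (F16.cj x.1, x.2)

/-- The norm is one. -/
def pn (x : F16 × F16) : Prop := x.1 * F16.cj x.1 + x.2 * F16.cj x.2 = 1

instance (x : F16 × F16) : Decidable (pn x) := by unfold pn; infer_instance

/-- `x` has the matrix of the pair `v`. -/
def Rep (x : U) (v : F16 × F16) : Prop := x.m = BM v.1 v.2 ∧ x.b = false

theorem Rep.mul {x y : U} {v w : F16 × F16} (hx : Rep x v) (hy : Rep y w) :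
    Rep (x * y) (pm v w) := by
  refine ⟨?_, ?_⟩
  · rw [U.mul_m, hx.1, hx.2, mc_false, hy.1, BM_mul]; rfl
  · rw [U.mul_b, hx.2, hy.2]; rfl

theorem Rep.inv {x : U} {v : F16 × F16} (hx : Rep x v) : Rep x⁻¹ (pi' v) := by
  refine ⟨?_, ?_⟩
  · rw [U.inv_m, hx.1, hx.2, mc_false, BM_st]; rfl
  · rw [U.inv_b, hx.2]

theorem Rep.one : Rep (1 : U) (1, 0) := by
  refine ⟨?_, rfl⟩
  refine Matrix.ext fun i j => ?_
  fin_cases i <;> fin_cases j <;> simp [BM]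

theorem Rep.inj {x y : U} {v : F16 × F16} (hx : Rep x v) (hy : Rep y v) : x = y :=
  U.ext (hx.1.trans hy.1.symm) (hx.2.trans hy.2.symm)

theorem Rep.eq {x : U} {v w : F16 × F16} (hx : Rep x v) (hy : Rep x w) : v = w := by
  have h := hx.1.symm.trans hy.1
  have h1 := congrFun (congrFun h 1) 1
  have h2 := congrFun (congrFun h 1) 2
  simp [BM] at h1 h2
  exact Prod.ext h1 h2

theorem Rep.mem {x : U} {v : F16 × F16} (hx : Rep x v) : x ∈ BB := by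
  refine ⟨⟨?_, ?_, ?_, ?_⟩, hx.2, ?_⟩ <;> simp [hx.1, BM]

theorem exists_rep (x : U) (hx : x ∈ BB) : ∃ v, pn v ∧ Rep x v := by
  obtain ⟨p, q, h, hm, hb⟩ := exists_bb x hx
  exact ⟨(p, q), h, hm, hb⟩

theorem rep_exists (v : F16 × F16) (h : pn v) : ∃ x, Rep x v :=
  ⟨bb v.1 v.2 h, rfl, rfl⟩

/-- bits -/
def nb (n : ℕ) : F16 := ⟨(n % 2 : ℕ), (n / 2 % 2 : ℕ), (n / 4 % 2 : ℕ), (n / 8 % 2 : ℕ)⟩

/-- The word of the first row. -/
def wd (s x : F16 × F16) : F16 × F16 := pm s (pm (pm x (pm s s)) (pi' x))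

def gd (s x : F16 × F16) : Prop := wd s x ≠ (1, 0) ∧ pm (wd s x) (wd s x) = (1, 0)

instance (s x : F16 × F16) : Decidable (gd s x) := by unfold gd; infer_instance

theorem c1 : ∀ s : F16 × F16, pn s → s ≠ (1, 0) →
    gd s (nb 2, nb 4) ∨ gd s (nb 2, nb 5) ∨ gd s (nb 4, nb 2) := by decide +kernel

theorem c1n : pn (nb 2, nb 4) ∧ pn (nb 2, nb 5) ∧ pn (nb 4, nb 2) := by decide +kernel

theorem c1' (s : F16 × F16) (h : pn s) (hs : s ≠ (1, 0)) : ∃ x, pn x ∧ gd s x := by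
  rcases c1 s h hs with h | h | h
  · exact ⟨_, c1n.1, h⟩
  · exact ⟨_, c1n.2.1, h⟩
  · exact ⟨_, c1n.2.2, h⟩

theorem c2 : ∀ v : F16 × F16, pn v → v ≠ (1, 0) → pm v v = (1, 0) →
    ∃ a : F16, pn (a, v.2 ^ 8 + a) ∧
      pm (pm (a, v.2 ^ 8 + a) (0, 1)) (pi' (a, v.2 ^ 8 + a)) = v := by decide +kernel

theorem c3 : ∀ v : F16 × F16, pn v → ∃ u : F16 × F16,
    pn u ∧ pm u u = (1, 0) ∧ pm (pm u v) (pm u v) = (1, 0) := by
  decide +kernel

theorem c0 : pn (0, 1) ∧ pn (0, nb 8) ∧ pm (0, 1) (0, 1) = (1, 0) ∧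
    pm (0, nb 8) (0, nb 8) = (1, 0) ∧ ((0, 1) : F16 × F16) ≠ (0, nb 8) ∧
    ((0, 1) : F16 × F16) ≠ (1, 0) ∧ ((0, nb 8) : F16 × F16) ≠ (1, 0) := by decide +kernel

theorem Rep.eq_one {x : U} {v : F16 × F16} (hx : Rep x v) : x = 1 ↔ v = (1, 0) := by
  refine ⟨fun h => ?_, fun h => ?_⟩
  · subst h; exact hx.eq Rep.one
  · subst h; exact hx.inj Rep.one

theorem b0 : ∃ u ∈ BB, ∃ v ∈ BB, u ≠ 1 ∧ u * u = 1 ∧ v ≠ 1 ∧ v * v = 1 ∧ u ≠ v := by
  obtain ⟨h1, h2, h3, h4, h5, h6, h7⟩ := c0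
  obtain ⟨u, hu⟩ := rep_exists _ h1
  obtain ⟨v, hv⟩ := rep_exists _ h2
  refine ⟨u, hu.mem, v, hv.mem, fun h => h6 (hu.eq_one.1 h), (hu.mul hu).eq_one.2 h3,
    fun h => h7 (hv.eq_one.1 h), (hv.mul hv).eq_one.2 h4, ?_⟩
  rintro rfl
  exact h5 (hu.eq hv)

theorem b1 : ∀ s ∈ BB, s ≠ 1 → ∃ x ∈ BB, s * (x * (s * s) * x⁻¹) ≠ 1 ∧
    (s * (x * (s * s) * x⁻¹)) * (s * (x * (s * s) * x⁻¹)) = 1 := by
  intro s hs hne
  obtain ⟨v, hv, hsv⟩ := exists_rep s hs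
  obtain ⟨w, hw, hg1, hg2⟩ := c1' v hv fun h => hne (hsv.eq_one.2 h)
  obtain ⟨x, hx⟩ := rep_exists w hw
  have hr : Rep (s * (x * (s * s) * x⁻¹)) (wd v w) := hsv.mul ((hx.mul (hsv.mul hsv)).mul hx.inv)
  exact ⟨x, hx.mem, fun h => hg1 (hr.eq_one.1 h), (hr.mul hr).eq_one.2 hg2⟩

theorem b2 : ∀ u ∈ BB, ∀ v ∈ BB, u ≠ 1 → u * u = 1 → v ≠ 1 → v * v = 1 →
    ∃ x ∈ BB, v = x * u * x⁻¹ := by
  obtain ⟨u0, hu0⟩ := rep_exists (0, 1) c0.1
  have key : ∀ v ∈ BB, v ≠ 1 → v * v = 1 → ∃ x ∈ BB, v = x * u0 * x⁻¹ := by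
    intro v hv hne hvv
    obtain ⟨w, hw, hvw⟩ := exists_rep v hv
    obtain ⟨a, ha, e⟩ := c2 w hw (fun h => hne (hvw.eq_one.2 h)) ((hvw.mul hvw).eq_one.1 hvv)
    obtain ⟨x, hx⟩ := rep_exists _ ha
    refine ⟨x, hx.mem, ?_⟩
    have hr := (hx.mul hu0).mul hx.inv
    rw [e] at hr
    exact hvw.inj hr
  intro u hu v hv hu1 hu2 hv1 hv2
  obtain ⟨x, hx, ex⟩ := key u hu hu1 hu2
  obtain ⟨y, hy, ey⟩ := key v hv hv1 hv2
  refine ⟨y * x⁻¹, BB.mul_mem hy (BB.inv_mem hx), ?_⟩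
  rw [ey, ex]
  group

theorem b3 : ∀ g ∈ BB, ∃ u ∈ BB, ∃ v ∈ BB, u * u = 1 ∧ v * v = 1 ∧ g = u * v := by
  intro g hg
  obtain ⟨w, hw, hgw⟩ := exists_rep g hg
  obtain ⟨a, ha, h1, h2⟩ := c3 w hw
  obtain ⟨u, hu⟩ := rep_exists _ ha
  have huu : u * u = 1 := (hu.mul hu).eq_one.2 h1
  have hug : (u * g) * (u * g) = 1 := ((hu.mul hgw).mul (hu.mul hgw)).eq_one.2 h2
  refine ⟨u, hu.mem, u * g, BB.mul_mem hu.mem hg, huu, hug, ?_⟩
  rw [← mul_assoc, huu, one_mul]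

/-- The matrices of the elements of `AA`. -/
def AM (l : F16) : M3 := !![l ^ 3, 0, 0; 0, l, 0; 0, 0, l]

theorem AM_mul (l l' : F16) : AM l * AM l' = AM (l * l') := by
  refine Matrix.ext fun i j => ?_
  fin_cases i <;> fin_cases j <;>
    simp [AM, Matrix.mul_apply, Fin.sum_univ_three] <;> ring

theorem f1 : ∀ c l : F16, c * (l * l) = 1 → l * F16.cj l = 1 → c = l ^ 3 := by decide +kernel

theorem f2 : ∀ l : F16, l * F16.cj l = 1 → l ^ 3 * F16.cj (l ^ 3) = 1 ∧ l ^ 3 * l * l = 1 := by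
  decide +kernel

theorem f3 : ∀ l l' : F16, l * F16.cj l = 1 → l' * F16.cj l' = 1 → l ≠ 1 →
    ∃ n : Fin 5, l' = l ^ n.val := by decide +kernel

theorem f4 : ∀ c : F16, c * F16.cj c = 1 → (F16.cj c) ^ 3 * F16.cj ((F16.cj c) ^ 3) = 1 ∧
    F16.cj (((F16.cj c) ^ 3) ^ 3) * c = 1 := by decide +kernel

theorem AM_h (l : F16) (h : l * F16.cj l = 1) : AM l * st (AM l) = 1 := by
  have h2 := (f2 l h).1
  refine Matrix.ext fun i j => ?_
  fin_cases i <;> fin_cases j <;>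
    simp [AM, Matrix.mul_apply, Fin.sum_univ_three, h]
  simpa using h2

theorem AM_det (l : F16) (h : l * F16.cj l = 1) : (AM l).det = 1 := by
  have h2 := (f2 l h).2
  rw [Matrix.det_fin_three]
  simpa [AM] using h2

/-- The element of `AA`. -/
def aa (l : F16) (h : l * F16.cj l = 1) : U := ⟨AM l, false, AM_h l h, AM_det l h⟩

theorem aa_mem (l : F16) (h : l * F16.cj l = 1) : aa l h ∈ AA := by
  refine ⟨⟨?_, ?_, ?_, ?_⟩, rfl, ?_, ?_, ?_⟩ <;> simp [aa, AM]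

theorem exists_aa (x : U) (hx : x ∈ AA) : ∃ l, l * F16.cj l = 1 ∧ x.m = AM l ∧ x.b = false := by
  obtain ⟨⟨h1, h2, h3, h4⟩, hb, h5, h6, h7⟩ := hx
  have e11 : (x.m * st x.m) 1 1 = 1 := by rw [x.h]; rfl
  have d := x.dt
  simp only [Matrix.mul_apply, Fin.sum_univ_three, st_apply, h1, h5, map_zero, mul_zero,
    zero_add, add_zero] at e11
  rw [Matrix.det_fin_three] at d
  simp only [h1, h2, h3, h4, h5, h6, zero_mul, mul_zero, sub_zero, add_zero] at d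
  rw [← h7, mul_assoc] at d
  have e := f1 _ _ d e11
  refine ⟨x.m 1 1, e11, ?_, hb⟩
  refine Matrix.ext fun i j => ?_
  fin_cases i <;> fin_cases j <;> simp [AM, h1, h2, h3, h4, h5, h6, ← h7, ← e]

theorem aa_pow (l : F16) (h : l * F16.cj l = 1) (n : ℕ) :
    ((aa l h) ^ n).m = AM (l ^ n) ∧ ((aa l h) ^ n).b = false := by
  induction n with
  | zero =>
    refine ⟨?_, rfl⟩
    rw [pow_zero, pow_zero]
    refine Matrix.ext fun i j => ?_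
    fin_cases i <;> fin_cases j <;> simp [AM]
  | succ n ih =>
    refine ⟨?_, ?_⟩
    · rw [pow_succ, U.mul_m, ih.1, ih.2, mc_false, pow_succ]
      exact AM_mul _ _
    · rw [pow_succ, U.mul_b, ih.2]; rfl

theorem a_prime (N : Subgroup U) (hN : N ≤ AA) : N = ⊥ ∨ N = AA := by
  refine prime_of AA ?_ N hN
  intro a ha hne b hb
  obtain ⟨l, hl, hm, hf⟩ := exists_aa a ha
  obtain ⟨l', hl', hm', hf'⟩ := exists_aa b hb
  have hl1 : l ≠ 1 := by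
    rintro rfl
    apply hne
    refine U.ext ?_ hf
    rw [hm]
    refine Matrix.ext fun i j => ?_
    fin_cases i <;> fin_cases j <;> simp [AM]
  obtain ⟨n, hn⟩ := f3 l l' hl hl' hl1
  have ea : a = aa l hl := U.ext hm hf
  refine ⟨n.val, U.ext ?_ ?_⟩
  · rw [ea, (aa_pow l hl n.val).1, hm', hn]
  · rw [ea, (aa_pow l hl n.val).2, hf']

theorem ab_comm : ∀ a ∈ AA, ∀ b ∈ BB, a * b = b * a := by
  intro a ha b hb
  obtain ⟨l, hl, hm, hf⟩ := exists_aa a ha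
  obtain ⟨p, q, h, hm', hf'⟩ := exists_bb b hb
  refine U.ext ?_ ?_
  · rw [U.mul_m, U.mul_m, hf, hf', mc_false, mc_false, hm, hm']
    refine Matrix.ext fun i j => ?_
    fin_cases i <;> fin_cases j <;>
      simp [AM, BM, Matrix.mul_apply, Fin.sum_univ_three] <;> ring
  · rw [U.mul_b, U.mul_b, hf, hf']

theorem ab_dec : ∀ x ∈ TT ⊓ QQ, ∃ a ∈ AA, ∃ b ∈ BB, x = a * b := by
  rintro x ⟨hT, hQ⟩
  have hb : x.b = false := hT
  obtain ⟨h1, h2, h3, h4⟩ := hQ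
  have e00 : (x.m * st x.m) 0 0 = 1 := by rw [x.h]; rfl
  simp only [Matrix.mul_apply, Fin.sum_univ_three, st_apply, h3, h4, map_zero, mul_zero,
    add_zero] at e00
  obtain ⟨k1, k2⟩ := f4 _ e00
  refine ⟨aa _ k1, aa_mem _ k1, (aa _ k1)⁻¹ * x, ?_, by group⟩
  refine ⟨QQ.mul_mem (QQ.inv_mem (aa_mem _ k1).1) ⟨h1, h2, h3, h4⟩, ?_, ?_⟩
  · rw [U.mul_b, U.inv_b, hb]; rfl
  · have e : ((aa _ k1)⁻¹ * x).m 0 0 = F16.cj (((F16.cj (x.m 0 0)) ^ 3) ^ 3) * x.m 0 0 := by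
      rw [U.mul_m, U.inv_m, U.inv_b]
      simp [aa, AM, Matrix.mul_apply, Fin.sum_univ_three, h1, h2]
    rw [e, k2]

/-- The subgroups of `TT ⊓ QQ` which are invariant under `QQ`. -/
theorem h4 (N : Subgroup U) (hN : N ≤ TT ⊓ QQ) (hn : ∀ q ∈ QQ, ∀ x ∈ N, q * x * q⁻¹ ∈ N) :
    N = ⊥ ∨ N = AA ∨ N = BB ∨ N = TT ⊓ QQ :=
  four_of (TT ⊓ QQ) QQ AA BB inf_le_right (fun _ hx => ⟨hx.2.1, hx.1⟩) ab_dec ab_comm a_prime
    b0 b1 b2 b3 N hN hn

end Vale.Agent.P183.H3
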