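import Vale.Agent.P183.H287.Top

/-!
An element outside the stabiliser gives an element with corner zero.
-/

set_option autoImplicit false

namespace Vale.Agent.P183.H3

open Matrix Vale.Agent.P183.H552 Vale.Agent.P183.H287

theorem cj_N (x : F16) : F16.cj (N x) = N x := by
  unfold N; rw [map_mul, F16.cj_cj, mul_comm]

theorem N_cb (b : Bool) (x : F16) : N (cb b x) = N x := by
  cases b
  · rfl
  · exact N_cj x

theorem cb_inv (b : Bool) (x : F16) : cb b (cb b x) = x := by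
  rw [cb_cb]; cases b <;> rfl

theorem rot_exists (w1 w2 a d : F16) (h : N w1 + N w2 = N a + N d) (h0 : N w1 + N w2 ≠ 0) :
    ∃ p s, N p + N s = 1 ∧ p * w1 + s * w2 = a ∧ F16.cj s * w1 + F16.cj p * w2 = d := by
  set n := N w1 + N w2 with hn
  have hcn : F16.cj n = n := by rw [hn, map_add, cj_N, cj_N]
  have hcn' : F16.cj n⁻¹ = n⁻¹ := by rw [map_inv₀, hcn]
  have hn' : w1 * F16.cj w1 + w2 * F16.cj w2 = n := rfl
  have h' : a * F16.cj a + d * F16.cj d = n := h.symm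
  have hnn : n * n⁻¹ = 1 := mul_inv_cancel₀ h0
  have t2 : ∀ x : F16, x + x = 0 := F16.add_self
  refine ⟨(a * F16.cj w1 + F16.cj d * w2) * n⁻¹, (a * F16.cj w2 + F16.cj d * w1) * n⁻¹, ?_, ?_, ?_⟩
  · unfold N
    simp only [map_mul, map_add, hcn', F16.cj_cj]
    linear_combination (n⁻¹ * n⁻¹ * (w1 * F16.cj w1 + w2 * F16.cj w2)) * h' +
      (n⁻¹ * n⁻¹ * n) * hn' + (n * n⁻¹ + 1) * hnn +
      (n⁻¹ * n⁻¹ * (a * d)) * t2 (F16.cj w1 * F16.cj w2) +
      (n⁻¹ * n⁻¹ * (F16.cj a * F16.cj d)) * t2 (w1 * w2)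
  · linear_combination (n⁻¹ * a) * hn' + a * hnn + (n⁻¹ * F16.cj d) * t2 (w1 * w2)
  · simp only [map_mul, map_add, hcn', F16.cj_cj]
    linear_combination (n⁻¹ * d) * hn' + d * hnn + (n⁻¹ * F16.cj a) * t2 (w1 * w2)

theorem su_col (g : U) (p s : F16) (h : N p + N s = 1) : (su p s h * g).m 0 0 = g.m 0 0 ∧
    (su p s h * g).m 1 0 = p * g.m 1 0 + s * g.m 2 0 ∧
    (su p s h * g).m 2 0 = F16.cj s * g.m 1 0 + F16.cj p * g.m 2 0 := by
  refine ⟨?_, ?_, ?_⟩ <;> rw [U.mul_m, Matrix.mul_apply, Fin.sum_univ_three] <;> simp [su]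

theorem gqg (g : U) (p s : F16) (h : N p + N s = 1) :
    (g * (su p s h * g)).m 0 0 = g.m 0 0 * cb g.b (g.m 0 0) +
      g.m 0 1 * cb g.b (p * g.m 1 0 + s * g.m 2 0) +
      g.m 0 2 * cb g.b (F16.cj s * g.m 1 0 + F16.cj p * g.m 2 0) := by
  obtain ⟨h0, h1, h2⟩ := su_col g p s h
  rw [U.mul_m, Matrix.mul_apply, Fin.sum_univ_three, mc_apply, mc_apply, mc_apply, h0, h1, h2]

theorem row_norm (g : U) : N (g.m 0 0) + (N (g.m 0 1) + N (g.m 0 2)) = 1 := by
  have e : (g.m * st g.m) 0 0 = 1 := by rw [g.h]; rfl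
  simp only [Matrix.mul_apply, Fin.sum_univ_three, st_apply] at e
  rw [← e]; unfold N; ring

theorem col_norm (g : U) : N (g.m 0 0) + (N (g.m 1 0) + N (g.m 2 0)) = 1 := by
  have e : (st g.m * g.m) 0 0 = 1 := by rw [g.h']; rfl
  simp only [Matrix.mul_apply, Fin.sum_univ_three, st_apply] at e
  rw [← e]; unfold N; ring

theorem exists_norm : ∀ a : F16, ∃ b : F16, N b = 1 + N a := by unfold N; decide +kernel

theorem corner_zero (K : Subgroup U) (hK : QQ ≤ K) (g : U) (hg : g ∈ K)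
    (hx : N (g.m 0 0) ≠ 1) : ∃ g' ∈ K, g'.m 0 0 = 0 := by
  have hr := row_norm g
  have hw := col_norm g
  set x := g.m 0 0 with hxx
  set r1 := g.m 0 1
  set r2 := g.m 0 2
  set w1 := g.m 1 0
  set w2 := g.m 2 0
  have t2 : ∀ x : F16, x + x = 0 := F16.add_self
  have hR : N r1 + N r2 ≠ 0 := by
    intro h
    rw [h, add_zero] at hr
    exact hx hr
  have hnR : N w1 + N w2 = N r1 + N r2 := add_left_cancel (hw.trans hr.symm)
  set R := N r1 + N r2 with hRR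
  have hR' : r1 * F16.cj r1 + r2 * F16.cj r2 = R := rfl
  have hRi : R * R⁻¹ = 1 := mul_inv_cancel₀ hR
  obtain ⟨β, hβ⟩ := exists_norm (x * cb g.b x * R⁻¹)
  set α := x * cb g.b x * R⁻¹ with hα
  have hβ' : β * F16.cj β = 1 + α * F16.cj α := hβ
  have hN : N w1 + N w2 = N (cb g.b (α * F16.cj r1 + β * r2)) +
      N (cb g.b (α * F16.cj r2 + β * r1)) := by
    rw [hnR, N_cb, N_cb]
    unfold N
    simp only [map_mul, map_add, F16.cj_cj]
    linear_combination (-(α * F16.cj α + β * F16.cj β)) * hR' - R * hβ' -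
      (α * F16.cj β) * t2 (F16.cj r1 * F16.cj r2) - (β * F16.cj α) * t2 (r1 * r2) -
      R * t2 (α * F16.cj α)
  obtain ⟨p, s, hps, e1, e2⟩ := rot_exists w1 w2 _ _ hN (by rw [hnR]; exact hR)
  refine ⟨g * (su p s hps * g), K.mul_mem hg (K.mul_mem (hK (su_mem hps)) hg), ?_⟩
  rw [gqg, e1, e2, cb_inv, cb_inv]
  have e3 : x * cb g.b x = α * R := by
    rw [hα, mul_assoc, mul_comm R⁻¹ R, hRi, mul_one]
  change x * cb g.b x + r1 * (α * F16.cj r1 + β * r2) + r2 * (α * F16.cj r2 + β * r1) = 0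
  rw [e3]
  linear_combination α * hR' + t2 (α * R) + β * t2 (r1 * r2)

/-- The elements of norm one. -/
def ul : List F16 := [1, ⟨0, 0, 0, 1⟩, ⟨0, 0, 1, 1⟩, ⟨0, 1, 0, 1⟩, ⟨1, 1, 1, 1⟩]

theorem ul_norm : ∀ m ∈ ul, m * F16.cj m = 1 := by decide +kernel

theorem ul_dec : ∀ c : F16, c * F16.cj c = 1 → ∀ u : F16, u ≠ 0 → ∀ v : F16,
    u * F16.cj u = v * F16.cj v → ∃ m ∈ ul,
      (c + m * u + F16.cj m * v) * F16.cj (c + m * u + F16.cj m * v) ≠ 1 := by decide +kernel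

theorem ne_zero_of_N {x y : F16} (h : N x + N y = 0) (hx : x ≠ 0) : N x = N y ∧ y ≠ 0 := by
  have e : N x = N y := by
    have t := F16.add_self (N y)
    linear_combination h - t
  refine ⟨e, ?_⟩
  rintro rfl
  have h0 : N x = 0 := by rw [e]; simp [N]
  have : x = 0 := by
    rcases mul_eq_zero.1 (show x * F16.cj x = 0 from h0) with h | h
    · exact h
    · exact (map_eq_zero F16.cj).1 h
  exact hx this

theorem norm_ne_one (K : Subgroup U) (hK : QQ ≤ K) (g : U) (hg : g ∈ K) (hq : g ∉ QQ)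
    (hx : N (g.m 0 0) = 1) : ∃ g' ∈ K, N (g'.m 0 0) ≠ 1 := by
  have hr := row_norm g
  have hw := col_norm g
  rw [hx] at hr hw
  have hr0 : N (g.m 0 1) + N (g.m 0 2) = 0 := by linear_combination hr
  have hw0 : N (g.m 1 0) + N (g.m 2 0) = 0 := by linear_combination hw
  have hw1 : g.m 1 0 ≠ 0 := by
    intro h
    apply hq
    apply QQ_of_col h
    by_contra h2
    have := (ne_zero_of_N (by rw [add_comm]; exact hw0) h2).2
    exact this h
  obtain ⟨hwN, hw2⟩ := ne_zero_of_N hw0 hw1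
  have hr1 : g.m 0 1 ≠ 0 := by
    intro h
    have h2 : g.m 0 2 = 0 := by
      by_contra h2
      exact (ne_zero_of_N (by rw [add_comm]; exact hr0) h2).2 h
    have e : (g.m * st g.m) 0 1 = 0 := by rw [g.h]; rfl
    simp only [Matrix.mul_apply, Fin.sum_univ_three, st_apply, h, h2, zero_mul, add_zero] at e
    rcases mul_eq_zero.1 e with h3 | h3
    · rw [h3] at hx
      simp [N] at hx
    · exact hw1 ((map_eq_zero F16.cj).1 h3)
  obtain ⟨hrN, hr2⟩ := ne_zero_of_N hr0 hr1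
  have hc : (g.m 0 0 * cb g.b (g.m 0 0)) * F16.cj (g.m 0 0 * cb g.b (g.m 0 0)) = 1 := by
    change N _ = 1
    rw [N_mul, N_cb, hx, one_mul]
  have hu : g.m 0 1 * cb g.b (g.m 1 0) ≠ 0 :=
    mul_ne_zero hr1 fun h => hw1 ((map_eq_zero (cb g.b)).1 h)
  have huv : (g.m 0 1 * cb g.b (g.m 1 0)) * F16.cj (g.m 0 1 * cb g.b (g.m 1 0)) =
      (g.m 0 2 * cb g.b (g.m 2 0)) * F16.cj (g.m 0 2 * cb g.b (g.m 2 0)) := by
    change N _ = N _
    rw [N_mul, N_mul, N_cb, N_cb, hrN, hwN]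
  obtain ⟨m, hm, hne⟩ := ul_dec _ hc _ hu _ huv
  have hm1 : m * F16.cj m = 1 := ul_norm m hm
  have hN : N (cb g.b m) + N 0 = 1 := by rw [N_cb]; simp [N, hm1]
  refine ⟨g * (su (cb g.b m) 0 hN * g), K.mul_mem hg (K.mul_mem (hK (su_mem hN)) hg), ?_⟩
  intro h
  apply hne
  rw [gqg] at h
  simp only [zero_mul, add_zero, map_zero, zero_add, map_mul, cb_cj, cb_inv] at h
  rw [← h]
  unfold N
  congr 1 <;> ring_nf

/-- (A) -/
theorem zero_of_not_mem (K : Subgroup U) (hK : QQ ≤ K) (g : U) (hg : g ∈ K) (hq : g ∉ QQ) :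
    ∃ g' ∈ K, g'.m 0 0 = 0 := by
  by_cases hx : N (g.m 0 0) = 1
  · obtain ⟨g', hg', h⟩ := norm_ne_one K hK g hg hq hx
    exact corner_zero K hK g' hg' h
  · exact corner_zero K hK g hg hx

end Vale.Agent.P183.H3
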